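import Mathlib
import Vale.Agent.P043.T2.Defs

/-! # P043: the finite gadget, abstract part -/

namespace Vale.Agent.P043.H100

abbrev G1 : Type := ZMod 4 × ZMod 9
abbrev G2 : Type := ZMod 25 × ZMod 49
abbrev CC : Type := Fin 2 × Fin 3
abbrev LL : Type := Fin 5 × Fin 7

def cell (g : G1) : CC :=
  (⟨g.1.val % 2, Nat.mod_lt _ (by norm_num)⟩, ⟨g.2.val % 3, Nat.mod_lt _ (by norm_num)⟩)
def layer (g : G2) : LL :=
  (⟨g.1.val % 5, Nat.mod_lt _ (by norm_num)⟩, ⟨g.2.val % 7, Nat.mod_lt _ (by norm_num)⟩)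

/-- small shifts of the first two coordinates -/
def sm1 (p : CC) : G1 := (((p.1 : ℕ) : ZMod 4), ((p.2 : ℕ) : ZMod 9))
/-- big shifts of the first two coordinates -/
def bg1 (p : CC) : G1 := (((2 * (p.1 : ℕ) : ℕ) : ZMod 4), ((3 * (p.2 : ℕ) : ℕ) : ZMod 9))
def sm2 (p : LL) : G2 := (((p.1 : ℕ) : ZMod 25), ((p.2 : ℕ) : ZMod 49))
def bg2 (p : LL) : G2 := (((5 * (p.1 : ℕ) : ℕ) : ZMod 25), ((7 * (p.2 : ℕ) : ℕ) : ZMod 49))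

lemma cA4 : ∀ (x : ZMod 4) (p : Fin 2), (x - ((2 * (p : ℕ) : ℕ) : ZMod 4)).val % 2 = x.val % 2 := by
  decide +kernel
lemma cA9 : ∀ (x : ZMod 9) (p : Fin 3), (x - ((3 * (p : ℕ) : ℕ) : ZMod 9)).val % 3 = x.val % 3 := by
  decide +kernel
lemma cA25 : ∀ (x : ZMod 25) (p : Fin 5),
    (x - ((5 * (p : ℕ) : ℕ) : ZMod 25)).val % 5 = x.val % 5 := by
  decide +kernel
lemma cA49 : ∀ (x : ZMod 49) (p : Fin 7),
    (x - ((7 * (p : ℕ) : ℕ) : ZMod 49)).val % 7 = x.val % 7 := by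
  decide +kernel
lemma cB4 : ∀ (x y : ZMod 4), y.val % 2 = x.val % 2 →
    ∃ p : Fin 2, x - ((2 * (p : ℕ) : ℕ) : ZMod 4) = y := by
  decide +kernel
lemma cB9 : ∀ (x y : ZMod 9), y.val % 3 = x.val % 3 →
    ∃ p : Fin 3, x - ((3 * (p : ℕ) : ℕ) : ZMod 9) = y := by
  decide +kernel
lemma cB25 : ∀ (x y : ZMod 25), y.val % 5 = x.val % 5 →
    ∃ p : Fin 5, x - ((5 * (p : ℕ) : ℕ) : ZMod 25) = y := by
  decide +kernel
lemma cB49 : ∀ (x y : ZMod 49), y.val % 7 = x.val % 7 →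
    ∃ p : Fin 7, x - ((7 * (p : ℕ) : ℕ) : ZMod 49) = y := by
  decide +kernel
lemma cI4 : ∀ p q : Fin 2, ((2 * (p : ℕ) : ℕ) : ZMod 4) = ((2 * (q : ℕ) : ℕ) : ZMod 4) → p = q := by
  decide +kernel
lemma cI9 : ∀ p q : Fin 3, ((3 * (p : ℕ) : ℕ) : ZMod 9) = ((3 * (q : ℕ) : ℕ) : ZMod 9) → p = q := by
  decide +kernel
lemma cI25 : ∀ p q : Fin 5,
    ((5 * (p : ℕ) : ℕ) : ZMod 25) = ((5 * (q : ℕ) : ℕ) : ZMod 25) → p = q := by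
  decide +kernel
lemma cI49 : ∀ p q : Fin 7,
    ((7 * (p : ℕ) : ℕ) : ZMod 49) = ((7 * (q : ℕ) : ℕ) : ZMod 49) → p = q := by
  decide +kernel

lemma cell_bg (g : G1) (p : CC) : cell (g - bg1 p) = cell g := by
  unfold cell bg1
  ext
  · exact cA4 g.1 p.1
  · exact cA9 g.2 p.2

lemma layer_bg (g : G2) (p : LL) : layer (g - bg2 p) = layer g := by
  unfold layer bg2
  ext
  · exact cA25 g.1 p.1
  · exact cA49 g.2 p.2

lemma cell_ex (g g' : G1) (h : cell g' = cell g) : ∃ p, g - bg1 p = g' := by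
  have h1 : g'.1.val % 2 = g.1.val % 2 := congrArg (fun c : CC => (c.1 : ℕ)) h
  have h2 : g'.2.val % 3 = g.2.val % 3 := congrArg (fun c : CC => (c.2 : ℕ)) h
  obtain ⟨p, hp⟩ := cB4 _ _ h1
  obtain ⟨q, hq⟩ := cB9 _ _ h2
  exact ⟨(p, q), Prod.ext hp hq⟩

lemma layer_ex (g g' : G2) (h : layer g' = layer g) : ∃ p, g - bg2 p = g' := by
  have h1 : g'.1.val % 5 = g.1.val % 5 := congrArg (fun c : LL => (c.1 : ℕ)) h
  have h2 : g'.2.val % 7 = g.2.val % 7 := congrArg (fun c : LL => (c.2 : ℕ)) h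
  obtain ⟨p, hp⟩ := cB25 _ _ h1
  obtain ⟨q, hq⟩ := cB49 _ _ h2
  exact ⟨(p, q), Prod.ext hp hq⟩

lemma bg1_inj (g : G1) (p q : CC) (h : g - bg1 p = g - bg1 q) : p = q := by
  have h' : bg1 p = bg1 q := sub_right_injective h
  unfold bg1 at h'
  rw [Prod.mk.injEq] at h'
  exact Prod.ext (cI4 _ _ h'.1) (cI9 _ _ h'.2)

lemma bg2_inj (g : G2) (p q : LL) (h : g - bg2 p = g - bg2 q) : p = q := by
  have h' : bg2 p = bg2 q := sub_right_injective h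
  unfold bg2 at h'
  rw [Prod.mk.injEq] at h'
  exact Prod.ext (cI25 _ _ h'.1) (cI49 _ _ h'.2)

/-- The data of one class. -/
structure Dat where
  D : G1 → LL → G1 → Prop
  rho : G1 → LL → G1 → ℕ
  B : G2 → CC → G2 → Prop
  sig : G2 → CC → G2 → ℕ
  Kt : CC → LL → ℕ
  XL : LL → G1 → Prop
  XC : CC → Prop
  hD1 : ∀ l h g, XL l g → ∃! p, D (h - sm1 p) l (g - sm1 p)
  hD0 : ∀ l h g, ¬ XL l g → ∀ p, ¬ D (h - sm1 p) l (g - sm1 p)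
  hDR : ∀ h l g, D h l g → rho h l g < Kt (cell g) l
  hMD : ∀ h l c n, n < Kt c l → ∃! g, cell g = c ∧ D h l g ∧ rho h l g = n
  hB1 : ∀ c h g, XC c → ∃! q, B (h - sm2 q) c (g - sm2 q)
  hB0 : ∀ c h g, ¬ XC c → ∀ q, ¬ B (h - sm2 q) c (g - sm2 q)
  hBR : ∀ h c g, B h c g → sig h c g < Kt c (layer g)
  hMB : ∀ h c l n, n < Kt c l → ∃! g, layer g = l ∧ B h c g ∧ sig h c g = n

/-- The set of one class. -/
def Dat.A (d : Dat) : Set ((G1 × G2) × (G1 × G2)) :=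
  {q | d.D q.1.1 (layer q.2.2) q.2.1 ∧ d.B q.1.2 (cell q.2.1) q.2.2 ∧
    d.rho q.1.1 (layer q.2.2) q.2.1 = d.sig q.1.2 (cell q.2.1) q.2.2}

theorem Dat.t1 (d : Dat) (h1 : G1) (h2 : G2) (g1 : G1) (g2 : G2) (hX : d.XL (layer g2) g1) :
    ∃! q : CC × LL, ((h1 - sm1 q.1, h2), (g1 - sm1 q.1, g2 - bg2 q.2)) ∈ d.A := by
  obtain ⟨p, hp, hpu⟩ := d.hD1 (layer g2) h1 g1 hX
  have hp' : d.D (h1 - sm1 p) (layer g2) (g1 - sm1 p) := hp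
  obtain ⟨g', ⟨hg1, hg2, hg3⟩, hgu⟩ := d.hMB h2 (cell (g1 - sm1 p)) (layer g2) _ (d.hDR _ _ _ hp')
  obtain ⟨q, hq⟩ := layer_ex g2 g' hg1
  refine ⟨(p, q), ?_, ?_⟩
  · change _ ∧ _ ∧ _
    dsimp only
    rw [hq, hg1]
    exact ⟨hp', hg2, hg3.symm⟩
  · rintro ⟨p', q'⟩ h
    change _ ∧ _ ∧ _ at h
    dsimp only at h
    rw [layer_bg] at h
    obtain ⟨ha, hb, hc⟩ := h
    have hpp : p' = p := hpu p' ha
    subst hpp
    have := hgu (g2 - bg2 q') ⟨layer_bg _ _, hb, hc.symm⟩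
    rw [← hq] at this
    rw [bg2_inj _ _ _ this]

theorem Dat.t0 (d : Dat) (h1 : G1) (h2 : G2) (g1 : G1) (g2 : G2) (hX : ¬ d.XL (layer g2) g1)
    (q : CC × LL) : ((h1 - sm1 q.1, h2), (g1 - sm1 q.1, g2 - bg2 q.2)) ∉ d.A := by
  intro h
  change _ ∧ _ ∧ _ at h
  dsimp only at h
  rw [layer_bg] at h
  exact d.hD0 _ _ _ hX _ h.1

theorem Dat.f1 (d : Dat) (h1 : G1) (h2 : G2) (g1 : G1) (g2 : G2) (hX : d.XC (cell g1)) :
    ∃! q : CC × LL, ((h1, h2 - sm2 q.2), (g1 - bg1 q.1, g2 - sm2 q.2)) ∈ d.A := by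
  obtain ⟨p, hp, hpu⟩ := d.hB1 (cell g1) h2 g2 hX
  have hp' : d.B (h2 - sm2 p) (cell g1) (g2 - sm2 p) := hp
  obtain ⟨g', ⟨hg1, hg2, hg3⟩, hgu⟩ := d.hMD h1 (layer (g2 - sm2 p)) (cell g1) _ (d.hBR _ _ _ hp')
  obtain ⟨q, hq⟩ := cell_ex g1 g' hg1
  refine ⟨(q, p), ?_, ?_⟩
  · change _ ∧ _ ∧ _
    dsimp only
    rw [hq, hg1]
    exact ⟨hg2, hp', hg3⟩
  · rintro ⟨q', p'⟩ h
    change _ ∧ _ ∧ _ at h
    dsimp only at h
    rw [cell_bg] at h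
    obtain ⟨ha, hb, hc⟩ := h
    have hpp : p' = p := hpu p' hb
    subst hpp
    have := hgu (g1 - bg1 q') ⟨cell_bg _ _, ha, hc⟩
    rw [← hq] at this
    rw [bg1_inj _ _ _ this]

theorem Dat.f0 (d : Dat) (h1 : G1) (h2 : G2) (g1 : G1) (g2 : G2) (hX : ¬ d.XC (cell g1))
    (q : CC × LL) : ((h1, h2 - sm2 q.2), (g1 - bg1 q.1, g2 - sm2 q.2)) ∉ d.A := by
  intro h
  change _ ∧ _ ∧ _ at h
  dsimp only at h
  rw [cell_bg] at h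
  exact d.hB0 _ _ _ hX _ h.2.1

end Vale.Agent.P043.H100
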