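import Mathlib
import Vale.Agent.P043.H100.FinB

/-! # P043: the finite gadget, the two classes -/

namespace Vale.Agent.P043.H100

lemma cell_fst (g : G1) : ((cell g).1 : ℕ) = g.1.val % 2 := rfl
lemma cell_snd (g : G1) : ((cell g).2 : ℕ) = g.2.val % 3 := rfl
lemma layer_fst (g : G2) : ((layer g).1 : ℕ) = g.1.val % 5 := rfl
lemma layer_snd (g : G2) : ((layer g).2 : ℕ) = g.2.val % 7 := rfl

lemma cell_eq (g : G1) (c : CC) : cell g = c ↔ g.1.val % 2 = c.1 ∧ g.2.val % 3 = c.2 := by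
  constructor
  · rintro rfl
    exact ⟨rfl, rfl⟩
  · rintro ⟨h1, h2⟩
    exact Prod.ext (Fin.ext h1) (Fin.ext h2)

lemma layer_eq (g : G2) (c : LL) : layer g = c ↔ g.1.val % 5 = c.1 ∧ g.2.val % 7 = c.2 := by
  constructor
  · rintro rfl
    exact ⟨rfl, rfl⟩
  · rintro ⟨h1, h2⟩
    exact Prod.ext (Fin.ext h1) (Fin.ext h2)

lemma v49 (x : ZMod 49) : x.val / 7 < 7 := by
  have := ZMod.val_lt x
  omega
lemma v25 (x : ZMod 25) : x.val / 5 < 5 := by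
  have := ZMod.val_lt x
  omega
lemma v49' (x : ZMod 49) : x.val % 7 < 7 := Nat.mod_lt _ (by norm_num)
lemma v25' (x : ZMod 25) : x.val % 5 < 5 := Nat.mod_lt _ (by norm_num)

/-- class 0 -/
def dat0 : Dat where
  D h l g := D0b (codeN l.1 l.2) ((h.2 - g.2).val / 3) g.1.val g.2.val = true
  rho h l g := rho0 (codeN l.1 l.2) ((h.2 - g.2).val / 3) g.1.val g.2.val
  B h c g := cl0 c.1 c.2 = true ∧ g.1.val % 5 = kb0 c.1 c.2 ((h.2 - g.2).val / 7) ∧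
    g.2.val % 7 = lb0 c.1 c.2 ((h.2 - g.2).val / 7) (g.1.val / 5)
  sig h c g := rk0 c.1 c.2 ((h.2 - g.2).val / 7) (g.1.val / 5)
  Kt c l := K0 c.1 c.2 (codeN l.1 l.2)
  XL l g := xl (codeN l.1 l.2) g.2.val = true
  XC c := cl0 c.1 c.2 = true
  hD1 := by
    intro l h g hX
    obtain ⟨p, hp, hu⟩ := cD0a _ (code_mem l) h.2 g.1 g.2 hX
    refine ⟨p, ?_, ?_⟩
    · change D0b _ (((h - sm1 p).2 - (g - sm1 p).2).val / 3) _ _ = true
      have : (h - sm1 p).2 - (g - sm1 p).2 = h.2 - g.2 := by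
        simp
      rw [this]
      exact hp
    · intro q hq
      change D0b _ (((h - sm1 q).2 - (g - sm1 q).2).val / 3) _ _ = true at hq
      have : (h - sm1 q).2 - (g - sm1 q).2 = h.2 - g.2 := by
        simp
      rw [this] at hq
      exact hu q hq
  hD0 := by
    intro l h g hX q hq
    change D0b _ (((h - sm1 q).2 - (g - sm1 q).2).val / 3) _ _ = true at hq
    have : (h - sm1 q).2 - (g - sm1 q).2 = h.2 - g.2 := by
      simp
    rw [this] at hq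
    exact cD0b _ (code_mem l) h.2 g.1 g.2 hX q hq
  hDR := by
    intro h l g hD
    exact cD0r _ (code_mem l) h.2 g.1 g.2 hD
  hMD := by
    intro h l c n hn
    have hn8 : n < 8 := lt_trans hn (cK0 _ (code_mem l) c.1 c.2)
    obtain ⟨g, ⟨h1, h2, h3, h4⟩, hu⟩ := cD0m _ (code_mem l) h.2 c.1 c.2 ⟨n, hn8⟩ hn
    refine ⟨g, ⟨(cell_eq _ _).2 ⟨h1, h2⟩, h3, h4⟩, ?_⟩
    rintro g' ⟨k1, k2, k3⟩
    obtain ⟨k4, k5⟩ := (cell_eq _ _).1 k1
    exact hu g' ⟨k4, k5, k2, k3⟩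
  hB1 := by
    intro c h g hX
    obtain ⟨q1, hq1, hu1⟩ := u25 g.1 ⟨_, kb0_lt c.1 c.2 ⟨_, v49 (h.2 - g.2)⟩⟩
    obtain ⟨q2, hq2, hu2⟩ := u49 g.2 ⟨_, lb0_lt c.1 c.2 ⟨_, v49 (h.2 - g.2)⟩
      ⟨_, v25 (g.1 - ((q1 : ℕ) : ZMod 25))⟩⟩
    refine ⟨(q1, q2), ?_, ?_⟩
    · have : (h - sm2 (q1, q2)).2 - (g - sm2 (q1, q2)).2 = h.2 - g.2 := by
        simp
      refine ⟨hX, ?_, ?_⟩
      · rw [this]
        exact hq1
      · rw [this]
        exact hq2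
    · rintro ⟨r1, r2⟩ ⟨_, hb, hc⟩
      have : (h - sm2 (r1, r2)).2 - (g - sm2 (r1, r2)).2 = h.2 - g.2 := by
        simp
      rw [this] at hb hc
      have e1 : r1 = q1 := hu1 r1 hb
      subst e1
      have e2 : r2 = q2 := hu2 r2 hc
      subst e2
      rfl
  hB0 := by
    intro c h g hX q hq
    exact hX hq.1
  hBR := by
    rintro h c g ⟨ha, hb, hc⟩
    have := rk0_lt c.1 c.2 ha ⟨_, v49 (h.2 - g.2)⟩ ⟨_, v25 g.1⟩
    rw [layer_fst, layer_snd, hb, hc]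
    exact this
  hMB := by
    intro h c l n hn
    have hn8 : n < 8 := lt_trans hn (cK0 _ (code_mem l) c.1 c.2)
    obtain ⟨hc, f, s, ⟨h1, h2, h3⟩, hu⟩ := cM0 c.1 c.2 l.1 l.2 ⟨n, hn8⟩ hn
    obtain ⟨x, hx1, hx2⟩ := z25 l.1 s
    obtain ⟨y, hy1, hy2⟩ := w49 h.2 f l.2
    refine ⟨(x, y), ⟨(layer_eq _ _).2 ⟨hx1, hy1⟩, ⟨hc, ?_, ?_⟩, ?_⟩, ?_⟩
    · change x.val % 5 = kb0 c.1 c.2 ((h.2 - y).val / 7)
      rw [hy2, hx1, h1]
    · change y.val % 7 = lb0 c.1 c.2 ((h.2 - y).val / 7) (x.val / 5)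
      rw [hy2, hx2, hy1, h2]
    · change rk0 c.1 c.2 ((h.2 - y).val / 7) (x.val / 5) = n
      rw [hy2, hx2, h3]
    · rintro ⟨x', y'⟩ ⟨hl, ⟨_, hb1, hb2⟩, hs⟩
      obtain ⟨hl1, hl2⟩ := (layer_eq _ _).1 hl
      change x'.val % 5 = l.1 at hl1
      change y'.val % 7 = l.2 at hl2
      change x'.val % 5 = kb0 c.1 c.2 ((h.2 - y').val / 7) at hb1
      change y'.val % 7 = lb0 c.1 c.2 ((h.2 - y').val / 7) (x'.val / 5) at hb2
      change rk0 c.1 c.2 ((h.2 - y').val / 7) (x'.val / 5) = n at hs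
      have := hu ⟨_, v49 (h.2 - y')⟩ ⟨_, v25 x'⟩
        ⟨hb1.symm.trans hl1, hb2.symm.trans hl2, hs⟩
      have e1 : (h.2 - y').val / 7 = f := congrArg Fin.val this.1
      have e2 : x'.val / 5 = s := congrArg Fin.val this.2
      have hy : y' = y := wi49 h.2 y' y (hl2.trans hy1.symm) (e1.trans hy2.symm)
      have hx : x' = x := by
        apply ZMod.val_injective
        have a1 := Nat.div_add_mod x'.val 5
        have a2 := Nat.div_add_mod x.val 5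
        omega
      rw [hx, hy]

/-- class 1 -/
def dat1 : Dat where
  D h l g := D1b (codeN l.1 l.2) ((h.1 - g.1).val / 2) g.1.val g.2.val = true
  rho h l g := rho1 (codeN l.1 l.2) ((h.1 - g.1).val / 2) g.1.val g.2.val
  B h c g := ¬ cl0 c.1 c.2 = true ∧ g.2.val % 7 = lb1 c.1 c.2 ((h.1 - g.1).val / 5) ∧
    g.1.val % 5 = kb1 c.1 c.2 ((h.1 - g.1).val / 5) (g.2.val / 7)
  sig h c g := rk1 c.1 c.2 ((h.1 - g.1).val / 5) (g.2.val / 7)
  Kt c l := K1 c.1 c.2 (codeN l.1 l.2)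
  XL l g := ¬ xl (codeN l.1 l.2) g.2.val = true
  XC c := ¬ cl0 c.1 c.2 = true
  hD1 := by
    intro l h g hX
    obtain ⟨p, hp, hu⟩ := cD1a _ (code_mem l) h.1 g.1 g.2 hX
    refine ⟨p, ?_, ?_⟩
    · change D1b _ (((h - sm1 p).1 - (g - sm1 p).1).val / 2) _ _ = true
      have : (h - sm1 p).1 - (g - sm1 p).1 = h.1 - g.1 := by
        simp
      rw [this]
      exact hp
    · intro q hq
      change D1b _ (((h - sm1 q).1 - (g - sm1 q).1).val / 2) _ _ = true at hq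
      have : (h - sm1 q).1 - (g - sm1 q).1 = h.1 - g.1 := by
        simp
      rw [this] at hq
      exact hu q hq
  hD0 := by
    intro l h g hX q hq
    change D1b _ (((h - sm1 q).1 - (g - sm1 q).1).val / 2) _ _ = true at hq
    have : (h - sm1 q).1 - (g - sm1 q).1 = h.1 - g.1 := by
      simp
    rw [this] at hq
    exact cD1b _ (code_mem l) h.1 g.1 g.2 (not_not.1 hX) q hq
  hDR := by
    intro h l g hD
    exact cD1r _ (code_mem l) h.1 g.1 g.2 hD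
  hMD := by
    intro h l c n hn
    have hn8 : n < 8 := lt_trans hn (cK1 _ (code_mem l) c.1 c.2)
    obtain ⟨g, ⟨h1, h2, h3, h4⟩, hu⟩ := cD1m _ (code_mem l) h.1 c.1 c.2 ⟨n, hn8⟩ hn
    refine ⟨g, ⟨(cell_eq _ _).2 ⟨h1, h2⟩, h3, h4⟩, ?_⟩
    rintro g' ⟨k1, k2, k3⟩
    obtain ⟨k4, k5⟩ := (cell_eq _ _).1 k1
    exact hu g' ⟨k4, k5, k2, k3⟩
  hB1 := by
    intro c h g hX
    obtain ⟨q2, hq2, hu2⟩ := u49 g.2 ⟨_, lb1_lt c.1 c.2 ⟨_, v25 (h.1 - g.1)⟩⟩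
    obtain ⟨q1, hq1, hu1⟩ := u25 g.1 ⟨_, kb1_lt c.1 c.2 ⟨_, v25 (h.1 - g.1)⟩
      ⟨_, v49 (g.2 - ((q2 : ℕ) : ZMod 49))⟩⟩
    refine ⟨(q1, q2), ?_, ?_⟩
    · have : (h - sm2 (q1, q2)).1 - (g - sm2 (q1, q2)).1 = h.1 - g.1 := by
        simp
      refine ⟨hX, ?_, ?_⟩
      · rw [this]
        exact hq2
      · rw [this]
        exact hq1
    · rintro ⟨r1, r2⟩ ⟨_, hb, hc⟩
      have : (h - sm2 (r1, r2)).1 - (g - sm2 (r1, r2)).1 = h.1 - g.1 := by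
        simp
      rw [this] at hb hc
      have e2 : r2 = q2 := hu2 r2 hb
      subst e2
      have e1 : r1 = q1 := hu1 r1 hc
      subst e1
      rfl
  hB0 := by
    intro c h g hX q hq
    exact hX hq.1
  hBR := by
    rintro h c g ⟨ha, hb, hc⟩
    have := rk1_lt c.1 c.2 ha ⟨_, v25 (h.1 - g.1)⟩ ⟨_, v49 g.2⟩
    rw [layer_fst, layer_snd, hb, hc]
    exact this
  hMB := by
    intro h c l n hn
    have hn8 : n < 8 := lt_trans hn (cK1 _ (code_mem l) c.1 c.2)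
    obtain ⟨hc, f, s, ⟨h1, h2, h3⟩, hu⟩ := cM1 c.1 c.2 l.1 l.2 ⟨n, hn8⟩ hn
    obtain ⟨y, hy1, hy2⟩ := z49 l.2 s
    obtain ⟨x, hx1, hx2⟩ := w25 h.1 f l.1
    refine ⟨(x, y), ⟨(layer_eq _ _).2 ⟨hx1, hy1⟩, ⟨hc, ?_, ?_⟩, ?_⟩, ?_⟩
    · change y.val % 7 = lb1 c.1 c.2 ((h.1 - x).val / 5)
      rw [hx2, hy1, h1]
    · change x.val % 5 = kb1 c.1 c.2 ((h.1 - x).val / 5) (y.val / 7)
      rw [hx2, hy2, hx1, h2]
    · change rk1 c.1 c.2 ((h.1 - x).val / 5) (y.val / 7) = n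
      rw [hx2, hy2, h3]
    · rintro ⟨x', y'⟩ ⟨hl, ⟨_, hb1, hb2⟩, hs⟩
      obtain ⟨hl1, hl2⟩ := (layer_eq _ _).1 hl
      change x'.val % 5 = l.1 at hl1
      change y'.val % 7 = l.2 at hl2
      change y'.val % 7 = lb1 c.1 c.2 ((h.1 - x').val / 5) at hb1
      change x'.val % 5 = kb1 c.1 c.2 ((h.1 - x').val / 5) (y'.val / 7) at hb2
      change rk1 c.1 c.2 ((h.1 - x').val / 5) (y'.val / 7) = n at hs
      have := hu ⟨_, v25 (h.1 - x')⟩ ⟨_, v49 y'⟩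
        ⟨hb1.symm.trans hl2, hb2.symm.trans hl1, hs⟩
      have e1 : (h.1 - x').val / 5 = f := congrArg Fin.val this.1
      have e2 : y'.val / 7 = s := congrArg Fin.val this.2
      have hx : x' = x := wi25 h.1 x' x (hl1.trans hx1.symm) (e1.trans hx2.symm)
      have hy : y' = y := by
        apply ZMod.val_injective
        have a1 := Nat.div_add_mod y'.val 7
        have a2 := Nat.div_add_mod y.val 7
        omega
      rw [hx, hy]

end Vale.Agent.P043.H100
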